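import Mathlib

/-!
P268: multiplicity of a germ of a holomorphic function at the origin.
-/

namespace Vale.Agent.P268

/-- The multiplicity of `f` at `0`: the least `k` such that the homogeneous part of degree `k` of
the Taylor series of `f` at `0` (which is `z ↦ (1 / k!) D^k f(0) (z, ..., z)`) is not zero. -/
noncomputable def mult {N : ℕ} (f : (Fin N → ℂ) → ℂ) : ℕ :=
  sInf {k | ∃ z : Fin N → ℂ, iteratedFDeriv ℂ k f 0 (fun _ => z) ≠ 0}

/-- `v` is not in the tangent cone of the germ `f = 0` at `0`: the homogeneous part of lowest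
degree of `f` does not vanish at `v`. -/
def NonTangent {N : ℕ} (f : (Fin N → ℂ) → ℂ) (v : Fin N → ℂ) : Prop :=
  iteratedFDeriv ℂ (mult f) f 0 (fun _ => v) ≠ 0

end Vale.Agent.P268
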