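import Vale.Agent.P268.Defs

/-!
P268: growth of a germ at the origin and comparison of multiplicities.
-/

open Filter Topology Asymptotics

namespace Vale.Agent.P268

variable {N : ℕ}

theorem part_iff {f : (Fin N → ℂ) → ℂ} {p : FormalMultilinearSeries ℂ (Fin N → ℂ) ℂ}
    (hp : HasFPowerSeriesAt f p 0) (k : ℕ) (z : Fin N → ℂ) :
    iteratedFDeriv ℂ k f 0 (fun _ => z) = 0 ↔ p k (fun _ => z) = 0 := by
  obtain ⟨r, hr⟩ := hp
  rw [← hr.factorial_smul z k]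
  have h : k.factorial ≠ 0 := k.factorial_ne_zero
  simp [h]

theorem low_zero {f : (Fin N → ℂ) → ℂ} {p : FormalMultilinearSeries ℂ (Fin N → ℂ) ℂ}
    (hp : HasFPowerSeriesAt f p 0) {k : ℕ} (hk : k < mult f) (z : Fin N → ℂ) :
    p k (fun _ => z) = 0 := by
  rw [← part_iff hp]
  by_contra h
  exact Nat.notMem_of_lt_sInf hk ⟨z, h⟩

/-- the growth of `f` at the origin -/
theorem upper {f : (Fin N → ℂ) → ℂ} (hf : AnalyticAt ℂ f 0) :
    f =O[𝓝 0] fun z => ‖z‖ ^ mult f := by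
  obtain ⟨p, hp⟩ := hf
  have h := hp.isBigO_sub_partialSum_pow (mult f)
  have h2 : ∀ z : Fin N → ℂ, p.partialSum (mult f) z = 0 := by
    intro z
    rw [FormalMultilinearSeries.partialSum]
    exact Finset.sum_eq_zero fun k hk => low_zero hp (Finset.mem_range.1 hk) z
  simpa [h2] using h

theorem exists_part {f : (Fin N → ℂ) → ℂ} (hf : AnalyticAt ℂ f 0)
    (h0 : ¬ ∀ᶠ z in 𝓝 (0 : Fin N → ℂ), f z = 0) :
    ∃ z : Fin N → ℂ, iteratedFDeriv ℂ (mult f) f 0 (fun _ => z) ≠ 0 := by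
  have hne : {k | ∃ z : Fin N → ℂ, iteratedFDeriv ℂ k f 0 (fun _ => z) ≠ 0}.Nonempty := by
    by_contra hc
    apply h0
    rw [Set.not_nonempty_iff_eq_empty, Set.eq_empty_iff_forall_notMem] at hc
    obtain ⟨p, hp⟩ := hf
    filter_upwards [hp.eventually_hasSum_sub] with z hz
    have h3 : ∀ k, p k (fun _ => z - 0) = 0 := by
      intro k
      rw [← part_iff hp]
      by_contra h4
      exact hc k ⟨_, h4⟩
    simp only [h3] at hz
    exact hz.unique hasSum_zero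
  exact Nat.sInf_mem hne

/-- growth from below along a line -/
theorem lower {f : (Fin N → ℂ) → ℂ} (hf : AnalyticAt ℂ f 0) {v : Fin N → ℂ}
    (hv : NonTangent f v) :
    ∃ c : ℝ, 0 < c ∧ ∀ᶠ t : ℝ in 𝓝[>] 0, c * t ^ mult f ≤ ‖f ((t : ℂ) • v)‖ := by
  obtain ⟨p, hp⟩ := hf
  set m := mult f with hm
  have hv' : p m (fun _ => v) ≠ 0 := fun h => hv ((part_iff hp m v).2 h)
  have hpos : 0 < ‖p m (fun _ => v)‖ := norm_pos_iff.2 hv'
  obtain ⟨K, hK⟩ := (hp.isBigO_sub_partialSum_pow (m + 1)).bound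
  have hsum : ∀ z : Fin N → ℂ, p.partialSum (m + 1) z = p m (fun _ => z) := by
    intro z
    rw [FormalMultilinearSeries.partialSum, Finset.sum_range_succ,
      Finset.sum_eq_zero fun k hk => low_zero hp (Finset.mem_range.1 hk) z, zero_add]
  have hsm : ∀ t : ℝ, p m (fun _ => (t : ℂ) • v) = (t : ℂ) ^ m * p m (fun _ => v) := by
    intro t
    have h := (p m).map_smul_univ (fun _ => (t : ℂ)) (fun _ => v)
    rw [h]
    simp
  have htend : Tendsto (fun t : ℝ => (t : ℂ) • v) (𝓝[>] 0) (𝓝 0) := by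
    have h : Continuous (fun t : ℝ => (t : ℂ) • v) := by fun_prop
    have h2 := h.tendsto 0
    simp only [Complex.ofReal_zero, zero_smul] at h2
    exact h2.mono_left nhdsWithin_le_nhds
  have hK' := htend.eventually hK
  have hsmall : ∀ᶠ t : ℝ in 𝓝[>] 0, K * (t * ‖v‖ ^ (m + 1)) ≤ ‖p m (fun _ => v)‖ / 2 := by
    have h : Continuous (fun t : ℝ => K * (t * ‖v‖ ^ (m + 1))) := by fun_prop
    have h2 := h.tendsto 0
    simp only [zero_mul, mul_zero] at h2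
    have h3 : Tendsto (fun t : ℝ => K * (t * ‖v‖ ^ (m + 1))) (𝓝[>] 0) (𝓝 0) :=
      h2.mono_left nhdsWithin_le_nhds
    exact h3.eventually (ge_mem_nhds (by positivity))
  refine ⟨‖p m (fun _ => v)‖ / 2, by positivity, ?_⟩
  filter_upwards [hK', hsmall, self_mem_nhdsWithin] with t h1 h2 h3
  have ht : (0 : ℝ) < t := h3
  rw [zero_add, hsum, hsm] at h1
  have hn : ‖(t : ℂ) • v‖ = t * ‖v‖ := by
    rw [norm_smul, Complex.norm_real, Real.norm_of_nonneg ht.le]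
  rw [Real.norm_of_nonneg (by positivity), hn, mul_pow, pow_succ] at h1
  have h4 : ‖(t : ℂ) ^ m * p m (fun _ => v)‖ = t ^ m * ‖p m (fun _ => v)‖ := by
    rw [norm_mul, norm_pow, Complex.norm_real, Real.norm_of_nonneg ht.le]
  have h5 : ‖(t : ℂ) ^ m * p m (fun _ => v)‖ ≤ ‖f ((t : ℂ) • v)‖ +
      ‖f ((t : ℂ) • v) - (t : ℂ) ^ m * p m (fun _ => v)‖ := by
    have := norm_sub_norm_le ((t : ℂ) ^ m * p m (fun _ => v))
      (f ((t : ℂ) • v))
    rw [norm_sub_rev] at this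
    linarith
  rw [h4] at h5
  have h6 : K * (t ^ m * t * ‖v‖ ^ (m + 1)) = t ^ m * (K * (t * ‖v‖ ^ (m + 1))) := by ring
  rw [h6] at h1
  have h7 : t ^ m * (K * (t * ‖v‖ ^ (m + 1))) ≤ t ^ m * (‖p m (fun _ => v)‖ / 2) :=
    mul_le_mul_of_nonneg_left h2 (by positivity)
  nlinarith

/-- comparison of powers near `0` -/
theorem pow_cmp {c D β : ℝ} {m : ℕ} (hc : 0 < c)
    (h : ∃ᶠ t : ℝ in 𝓝[>] 0, c * t ^ m ≤ D * t ^ β) : β ≤ m := by
  by_contra hlt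
  push Not at hlt
  have h1 : Tendsto (fun t : ℝ => D * t ^ (β - m)) (𝓝[>] 0) (𝓝 (D * 0)) := by
    refine Tendsto.const_mul D ?_
    have h2 : ContinuousAt (fun t : ℝ => t ^ (β - m)) 0 :=
      Real.continuousAt_rpow_const _ _ (Or.inr (by linarith))
    have h3 := h2.tendsto
    rw [Real.zero_rpow (by linarith)] at h3
    exact h3.mono_left nhdsWithin_le_nhds
  rw [mul_zero] at h1
  have h4 : ∀ᶠ t : ℝ in 𝓝[>] 0, D * t ^ (β - m) < c := h1.eventually (gt_mem_nhds hc)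
  have h8 : ∀ᶠ t : ℝ in 𝓝[>] 0, 0 < t := self_mem_nhdsWithin
  obtain ⟨t, ht, ht2, ht1⟩ := (h.and_eventually (h4.and h8)).exists
  have h5 : t ^ (β - (m : ℝ)) * t ^ m = t ^ β := by
    rw [← Real.rpow_natCast, ← Real.rpow_add ht1]
    congr 1
    ring
  have h6 : 0 < t ^ m := by positivity
  rw [← h5] at ht
  have h7 : c ≤ D * t ^ (β - (m : ℝ)) := by
    refine le_of_mul_le_mul_right ?_ h6
    calc c * t ^ m ≤ D * (t ^ (β - (m : ℝ)) * t ^ m) := ht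
      _ = D * t ^ (β - (m : ℝ)) * t ^ m := by ring
  linarith

theorem tendsto_ray (v : Fin N → ℂ) :
    Tendsto (fun t : ℝ => (t : ℂ) • v) (𝓝[>] 0) (𝓝 0) := by
  have h : Continuous (fun t : ℝ => (t : ℂ) • v) := by fun_prop
  have h2 := h.tendsto 0
  simp only [Complex.ofReal_zero, zero_smul] at h2
  exact h2.mono_left nhdsWithin_le_nhds

/-- growth of `φ` along a ray outside the tangent cone -/
theorem growth {M : ℕ} {f : (Fin N → ℂ) → ℂ} {g : (Fin M → ℂ) → ℂ} (hf : AnalyticAt ℂ f 0)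
    (hg : AnalyticAt ℂ g 0) {φ : (Fin N → ℂ) → (Fin M → ℂ)} {c C : ℝ} (hc : 0 < c)
    (hφ : Tendsto φ (𝓝 0) (𝓝 0))
    (h2 : ∀ᶠ z in 𝓝 (0 : Fin N → ℂ), ‖f z‖ ≤ C * ‖g (φ z)‖ ^ c) {v : Fin N → ℂ}
    (hv : NonTangent f v) :
    ∃ δ : ℝ, 0 < δ ∧ ∀ᶠ t : ℝ in 𝓝[>] 0,
      δ * t ^ mult f ≤ ‖φ ((t : ℂ) • v)‖ ^ (c * mult g) := by
  set B : ℝ := |C| + 1 with hB
  have hB0 : 0 < B := by positivity
  have hCB : C ≤ B := (le_abs_self C).trans (by linarith)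
  obtain ⟨K0, hK0⟩ := (upper hg).bound
  set K : ℝ := |K0| + 1 with hKdef
  have hKpos : 0 < K := by positivity
  have hg2 := hφ.eventually hK0
  have hz : ∀ᶠ z in 𝓝 (0 : Fin N → ℂ),
      ‖f z‖ ≤ B * K ^ c * ‖φ z‖ ^ (c * mult g) := by
    filter_upwards [h2, hg2] with z hz2 hz3
    rw [Real.norm_of_nonneg (by positivity)] at hz3
    have e1 : ‖g (φ z)‖ ≤ K * ‖φ z‖ ^ mult g := by
      refine hz3.trans ?_
      exact mul_le_mul_of_nonneg_right ((le_abs_self K0).trans (by linarith)) (by positivity)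
    have e2 : ‖g (φ z)‖ ^ c ≤ (K * ‖φ z‖ ^ mult g) ^ c :=
      Real.rpow_le_rpow (norm_nonneg _) e1 hc.le
    have e3 : (K * ‖φ z‖ ^ mult g) ^ c = K ^ c * ‖φ z‖ ^ (c * mult g) := by
      have hzn := norm_nonneg (φ z)
      rw [Real.mul_rpow (by positivity) (by positivity)]
      congr 1
      rw [← Real.rpow_natCast, ← Real.rpow_mul hzn]
      congr 1
      ring
    calc ‖f z‖ ≤ C * ‖g (φ z)‖ ^ c := hz2
      _ ≤ B * ‖g (φ z)‖ ^ c :=
        mul_le_mul_of_nonneg_right hCB (Real.rpow_nonneg (norm_nonneg _) _)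
      _ ≤ B * (K ^ c * ‖φ z‖ ^ (c * mult g)) := by
        rw [← e3]
        exact mul_le_mul_of_nonneg_left e2 hB0.le
      _ = _ := by ring
  obtain ⟨c0, hc0, hlow⟩ := lower hf hv
  have hz2 := (tendsto_ray v).eventually hz
  have hBK : 0 < B * K ^ c := by positivity
  refine ⟨c0 / (B * K ^ c), by positivity, ?_⟩
  filter_upwards [hlow, hz2] with t ht1 ht2
  rw [div_mul_eq_mul_div, div_le_iff₀ hBK]
  calc c0 * t ^ mult f ≤ ‖f ((t : ℂ) • v)‖ := ht1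
    _ ≤ _ := ht2
    _ = _ := by ring

/-- comparison of multiplicities -/
theorem key {M : ℕ} {f : (Fin N → ℂ) → ℂ} {g : (Fin M → ℂ) → ℂ} (hf : AnalyticAt ℂ f 0)
    (hg : AnalyticAt ℂ g 0) {φ : (Fin N → ℂ) → (Fin M → ℂ)} {c C : ℝ} (hc : 0 < c)
    (hφ : Tendsto φ (𝓝 0) (𝓝 0))
    (h2 : ∀ᶠ z in 𝓝 (0 : Fin N → ℂ), ‖f z‖ ≤ C * ‖g (φ z)‖ ^ c) {v : Fin N → ℂ}
    (hv : NonTangent f v) {a D : ℝ}
    (h1 : ∃ᶠ t : ℝ in 𝓝[>] 0, ‖φ ((t : ℂ) • v)‖ ≤ D * t ^ a) :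
    a * c * mult g ≤ mult f := by
  obtain ⟨δ, hδ, h3⟩ := growth hf hg hc hφ h2 hv
  set B : ℝ := |D| + 1 with hB
  have hB0 : 0 < B := by positivity
  have hDB : D ≤ B := (le_abs_self D).trans (by linarith)
  have h8 : ∀ᶠ t : ℝ in 𝓝[>] 0, 0 < t := self_mem_nhdsWithin
  refine pow_cmp (c := δ) (D := B ^ (c * mult g)) hδ ?_
  refine (h1.and_eventually (h3.and h8)).mono ?_
  rintro t ⟨ht1, ht2, ht⟩
  have e1 : ‖φ ((t : ℂ) • v)‖ ≤ B * t ^ a :=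
    ht1.trans (mul_le_mul_of_nonneg_right hDB (Real.rpow_nonneg ht.le _))
  have e2 : ‖φ ((t : ℂ) • v)‖ ^ (c * mult g) ≤ (B * t ^ a) ^ (c * mult g) :=
    Real.rpow_le_rpow (norm_nonneg _) e1 (by positivity)
  rw [Real.mul_rpow hB0.le (Real.rpow_nonneg ht.le _), ← Real.rpow_mul ht.le] at e2
  calc δ * t ^ mult f ≤ _ := ht2
    _ ≤ _ := e2
    _ = B ^ (c * mult g) * t ^ (a * c * mult g) := by
      congr 2
      ring

/-- germs which are topologically right-left equivalent -/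
theorem equal {f g : (Fin N → ℂ) → ℂ} (hf : AnalyticAt ℂ f 0) (hg : AnalyticAt ℂ g 0)
    (hf1 : f 0 = 0) (hg1 : g 0 = 0)
    (φ : OpenPartialHomeomorph (Fin N → ℂ) (Fin N → ℂ)) (ρ : OpenPartialHomeomorph ℂ ℂ)
    (hφ0 : 0 ∈ φ.source) (hφ : φ 0 = 0) (hρ0 : 0 ∈ ρ.source) (hρ : ρ 0 = 0)
    (h : ∀ᶠ z in 𝓝 (0 : Fin N → ℂ), f z = ρ (g (φ z)))
    {v w : Fin N → ℂ} (hv : NonTangent f v) (hw : NonTangent g w)
    {a a' b b' C : ℝ} (hb : 0 < b) (hb' : 0 < b')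
    (h1 : ∃ᶠ t : ℝ in 𝓝[>] 0, ‖φ ((t : ℂ) • v)‖ ≤ C * t ^ a)
    (h2 : ∃ᶠ t : ℝ in 𝓝[>] 0, ‖φ.symm ((t : ℂ) • w)‖ ≤ C * t ^ a')
    (h3 : ∀ᶠ s in 𝓝 (0 : ℂ), ‖ρ s‖ ≤ C * ‖s‖ ^ b)
    (h4 : ∀ᶠ s in 𝓝 (0 : ℂ), ‖ρ.symm s‖ ≤ C * ‖s‖ ^ b')
    (h5 : (mult g : ℝ) - 1 < a * b * mult g) (h6 : (mult f : ℝ) - 1 < a' * b' * mult f) :
    mult f = mult g := by
  have tφ : Tendsto φ (𝓝 0) (𝓝 0) := by
    have := (φ.continuousAt hφ0).tendsto
    rwa [hφ] at this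
  have hφs0 : (0 : Fin N → ℂ) ∈ φ.target := by
    have := φ.map_source hφ0
    rwa [hφ] at this
  have hφs : φ.symm 0 = 0 := by
    have := φ.left_inv hφ0
    rwa [hφ] at this
  have tψ : Tendsto φ.symm (𝓝 0) (𝓝 0) := by
    have := (φ.continuousAt_symm hφs0).tendsto
    rwa [hφs] at this
  have tg : Tendsto g (𝓝 0) (𝓝 0) := by
    have := hg.continuousAt.tendsto
    rwa [hg1] at this
  have tf : Tendsto f (𝓝 0) (𝓝 0) := by
    have := hf.continuousAt.tendsto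
    rwa [hf1] at this
  have e1 : ∀ᶠ z in 𝓝 (0 : Fin N → ℂ), ‖f z‖ ≤ C * ‖g (φ z)‖ ^ b := by
    filter_upwards [h, tφ.eventually (tg.eventually h3)] with z hz hz2
    rw [hz]
    exact hz2
  have e2 : ∀ᶠ z in 𝓝 (0 : Fin N → ℂ), ‖g z‖ ≤ C * ‖f (φ.symm z)‖ ^ b' := by
    filter_upwards [tψ.eventually h, tψ.eventually (tf.eventually h4),
      φ.open_target.mem_nhds hφs0, tg.eventually (ρ.open_source.mem_nhds hρ0)]
      with z hz hz2 hz3 hz4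
    rw [φ.right_inv hz3] at hz
    have e3 : ρ.symm (f (φ.symm z)) = g z := by
      rw [hz]
      exact ρ.left_inv hz4
    rw [e3] at hz2
    exact hz2
  have r1 := key hf hg hb tφ e1 hv h1
  have r2 := key hg hf hb' tψ e2 hw h2
  have r3 : (mult g : ℝ) < mult f + 1 := by linarith
  have r4 : (mult f : ℝ) < mult g + 1 := by linarith
  have r5 : mult g < mult f + 1 := by exact_mod_cast r3
  have r6 : mult f < mult g + 1 := by exact_mod_cast r4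
  omega

end Vale.Agent.P268
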